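import Vale.Agent.P245.H676.Cr3

/-!
# Row CRACKS: divergence budget with a free gradient bound `g0`
-/

set_option linter.unusedSectionVars false

open Matrix Finset MeasureTheory

noncomputable section

namespace Vale.Agent.P245.H676

open Vale.Agent.P245 Vale.Agent.P245.LS Vale.Agent.P245.E1
open Vale.Agent.P254.S130 Vale.Agent.P254.SP620 Vale.Agent.P245.H792 Vale.Agent.P245.H736
open Vale.Agent.P245.H485 Vale.Agent.P245.H719

variable {n : ℕ}

/-- **the divergence budget in the crack step**, with a free bound `g0` (`g0² ≤ K F/κ`). -/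
theorem crack_dvb0 {ρ0 : (Fin n → ℝ) → ℝ} {R : ℝ} (hLC : LCd ρ0) [IsProbabilityMeasure (mu ρ0)]
    (hμ : CSupp (mu ρ0) R) {r : ℝ} {N : (Fin n → ℝ) → ℝ} (hr : 0 < r) (hN : Pos N)
    {f : Fin n → (Fin n → ℝ) → ℝ} (hf : ∀ i, SB (f i)) {κ C0 h F g0 K : ℝ}
    (hκ : 0 < κ) (hC : 4 ≤ C0) (hb : 2 * (κ / C0) ≤ r) (hh : h ≤ 1) (hF : 0 ≤ F)
    (he : 2 * κ * DE (mu ρ0) r N f ≤ (1 + h) * F)
    (hD : 2 * κ * H991.D2 (mu ρ0) r N f ≤ (1 + h) * DE (mu ρ0) r N f)
    (hK : 0 ≤ K) (hG : g0 ^ 2 ≤ K * (F / κ)) :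
    mDE (mu ρ0) r N (PS 1 (Sf κ f)) + mFl (mu ρ0) r N (PS 1 (Sf κ f))
      + g0 * Real.sqrt (mSq (mu ρ0) r N (PS 1 (Sf κ f)))
      ≤ (1 + C0 / 8 + Real.sqrt K / 2) * F := by
  have hC0 : 0 < C0 := by linarith
  have hSB := sbm_sf hf κ
  have hsy := sf_symm κ f
  have h1 := mDE_PS_le (μ := mu ρ0) (r := r) hN hSB hsy one_pos
  have h2 := mDE_Sf_le (μ := mu ρ0) (r := r) hN hf κ
  have h3 := mFl_le hLC hμ hr hN (sbm_PS hSB hsy one_pos)
  have h4 := crack_q (μ := mu ρ0) (r := r) hN hf hκ hh hF he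
  have hq0 := mSq_nonneg (μ := mu ρ0) (r := r) hN (PS 1 (Sf κ f))
  set q := mSq (mu ρ0) r N (PS 1 (Sf κ f))
  set e := DE (mu ρ0) r N f
  set D := H991.D2 (mu ρ0) r N f
  have h5 : mDE (mu ρ0) r N (PS 1 (Sf κ f)) ≤ F := by
    have he0 : 0 ≤ e := DE_nonneg hN f
    have h6 : κ ^ 2 * D ≤ κ * e := by
      have k1 := mul_le_mul_of_nonneg_left hD (by positivity : 0 ≤ κ / 2)
      have k2 : (1 + h) * e ≤ 2 * e := mul_le_mul_of_nonneg_right (by linarith) he0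
      have k3 := mul_le_mul_of_nonneg_left k2 (by positivity : 0 ≤ κ / 2)
      linarith
    have h7 : κ * e ≤ F := by
      have k2 : (1 + h) * F ≤ 2 * F := mul_le_mul_of_nonneg_right (by linarith) hF
      linarith
    have h8 : mDE (mu ρ0) r N (PS 1 (Sf κ f)) ≤ mDE (mu ρ0) r N (Sf κ f) := by
      simpa using h1
    linarith
  have h9 : mFl (mu ρ0) r N (PS 1 (Sf κ f)) ≤ C0 * F / 8 := by
    refine h3.trans ?_
    rw [div_le_iff₀ hr]
    have h10 : C0 * F / 8 * (2 * (κ / C0)) ≤ C0 * F / 8 * r :=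
      mul_le_mul_of_nonneg_left hb (by positivity)
    have e10 : C0 * F / 8 * (2 * (κ / C0)) = κ * F / 4 := by field_simp; ring
    linarith
  have h11 : g0 * Real.sqrt q ≤ Real.sqrt K * F / 2 := by
    have k1 : (g0 * Real.sqrt q) ^ 2 ≤ (Real.sqrt K * F / 2) ^ 2 := by
      rw [mul_pow, Real.sq_sqrt hq0]
      have k2 : g0 ^ 2 * q ≤ K * (F / κ) * (κ * F / 4) :=
        mul_le_mul hG h4 hq0 (by positivity)
      have k3 : K * (F / κ) * (κ * F / 4) = (Real.sqrt K * F / 2) ^ 2 := by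
        rw [div_pow, mul_pow, Real.sq_sqrt hK]
        field_simp
        ring
      linarith
    exact (abs_le_of_sq_le_sq' k1 (by positivity)).2
  nlinarith [mul_nonneg hC0.le hF]

end Vale.Agent.P245.H676
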