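import Vale.Agent.P245.H676.Cr2

/-!
# Row CRACKS, matrix half, in the vocabulary of `H485.FinDefs`
-/

set_option linter.unusedSectionVars false

open Matrix Finset MeasureTheory

noncomputable section

namespace Vale.Agent.P245.H676

open Vale.Agent.P245 Vale.Agent.P245.LS Vale.Agent.P245.E1
open Vale.Agent.P254.S130 Vale.Agent.P254.SP620 Vale.Agent.P245.H792 Vale.Agent.P245.H736
open Vale.Agent.P245.H485 Vale.Agent.P245.H719

variable {n : ℕ} {μ : Measure (Fin n → ℝ)} [IsProbabilityMeasure μ] {r : ℝ}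
  {N : (Fin n → ℝ) → ℝ}

theorem fr_eq_sum {S U : Matrix (Fin n) (Fin n) ℝ} {m : Fin n → ℝ} (h : Dec S U m) :
    fr S = ∑ j, m j ^ 2 := by
  have h1 := fr_mul_orth h.orth S
  rw [← h1]
  have h2 := sum_sq_col h (fun _ => 1)
  simpa [fr] using h2

/-- `tr (S² c²/(c²+S²)) = |S|² - tr(S² P_c(S))` -/
theorem tr_pt {S : Matrix (Fin n) (Fin n) ℝ} (hS : Sᵀ = S) {c : ℝ} (hc : 0 < c) :
    (mf (fun x => x ^ 2 * (c ^ 2 / (c ^ 2 + x ^ 2))) S).trace
      = fr S - (S * S * mf (Ps c) S).trace := by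
  obtain ⟨U, m, h⟩ := exists_dec hS
  rw [h.mf_trace, fr_eq_sum h, trace_sq_mf h, ← Finset.sum_sub_distrib]
  refine Finset.sum_congr rfl fun j _ => ?_
  unfold Ps
  have h4 : c ^ 2 + m j ^ 2 ≠ 0 := by positivity
  field_simp
  ring

theorem sbm_PS {S : (Fin n → ℝ) → Matrix (Fin n) (Fin n) ℝ} (hS : SBM S)
    (hsym : ∀ y, (S y)ᵀ = S y) {c : ℝ} (hc : 0 < c) : SBM (PS c S) := SBM_Ps hS hsym hc

theorem mTr_eq (hN : Pos N) {S : (Fin n → ℝ) → Matrix (Fin n) (Fin n) ℝ} (hS : SBM S)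
    (hsym : ∀ y, (S y)ᵀ = S y) {c : ℝ} (hc : 0 < c) :
    mTr μ r N c S = mSq μ r N S
      - EY μ r (fun y => N y * (S y * S y * mf (Ps c) (S y)).trace) := by
  have h0 : SB fun y => (S y * S y * mf (Ps c) (S y)).trace :=
    ((hS.mul hS).mul (sbm_PS hS hsym hc)).trace
  have e : (fun y => N y * (mf (fun x => x ^ 2 * (c ^ 2 / (c ^ 2 + x ^ 2))) (S y)).trace)
      = fun y => N y * (1 * fr (S y) + (-1) * (S y * S y * mf (Ps c) (S y)).trace) := by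
    funext y
    rw [tr_pt (hsym y) hc]; ring
  unfold mTr mSq
  rw [e, ey_lin hN (sb_fr hS) h0]
  ring

/-- **CRM**: `|S|² - E tr(S² c²/(c²+S²)) ≤ 2 κ² (|Df|² - |Df(1-Q)|²) + κ²/2 |A|²`, `Q = P_c(S)`. -/
theorem crm {f : Fin n → (Fin n → ℝ) → ℝ} (hN : Pos N) (hf : ∀ i, SB (f i)) {κ c : ℝ}
    (hc : 0 < c) :
    mSq μ r N (Sf κ f) - mTr μ r N c (Sf κ f)
      ≤ 2 * κ ^ 2 * (DE μ r N f - vRE μ r N f (PS c (Sf κ f))) + κ ^ 2 / 2 * AA μ r N f := by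
  have h1 := crm2 (μ := μ) (r := r) hN hf (κ := κ) (d := 1) one_pos (F := Ps c)
    (fun x => Ps_nonneg _ _) (fun x => Ps_le_one _ _)
    (sbm_PS (sbm_sf hf κ) (sf_symm κ f) hc)
  rw [mTr_eq hN (sbm_sf hf κ) (sf_symm κ f) hc]
  have e1 : (fun y => mf (Ps c) (Sf κ f y)) = PS c (Sf κ f) := rfl
  rw [e1] at h1
  have e2 : (1 + 1 / (1 : ℝ)) * (κ ^ 2 / 4) = κ ^ 2 / 2 := by ring
  rw [e2] at h1
  linarith

theorem mDE_PS_le (hN : Pos N) {S : (Fin n → ℝ) → Matrix (Fin n) (Fin n) ℝ} (hS : SBM S)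
    (hsym : ∀ y, (S y)ᵀ = S y) {c : ℝ} (hc : 0 < c) :
    mDE μ r N (PS c S) ≤ (1 / c) ^ 2 * mDE μ r N S := by
  have h1 : ∀ {A : (Fin n → ℝ) → Matrix (Fin n) (Fin n) ℝ}, SBM A →
      SB fun y => ∑ e, ∑ i, ∑ j, pd (fun z => A z i j) e y ^ 2 := fun hA =>
    SB.sum _ fun e _ => SB.sum _ fun i _ => SB.sum _ fun j _ => ((hA i j).pd e).pow 2
  unfold mDE
  have e2 : (1 / c) ^ 2 * EY μ r (fun y => N y * ∑ e, ∑ i, ∑ j, pd (fun z => S z i j) e y ^ 2)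
      = EY μ r (fun y => N y * ((1 / c) ^ 2 * ∑ e, ∑ i, ∑ j, pd (fun z => S z i j) e y ^ 2)) := by
    rw [← EY_const_mul]
    congr 1
    funext y
    ring
  rw [e2]
  refine ey_mono hN (h1 (sbm_PS hS hsym hc)) ((h1 hS).const_mul _) fun y => ?_
  rw [Finset.mul_sum]
  exact Finset.sum_le_sum fun e _ => fr_pdM_Ps_le hS hsym hc e y

theorem mDE_Sf_le (hN : Pos N) {f : Fin n → (Fin n → ℝ) → ℝ} (hf : ∀ i, SB (f i)) (κ : ℝ) :
    mDE μ r N (Sf κ f) ≤ κ ^ 2 * H991.D2 μ r N f := by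
  unfold mDE H991.D2
  have e2 : κ ^ 2 * EY μ r (fun y => N y * ∑ i, ∑ j, ∑ k, pd (pd (f i) j) k y ^ 2)
      = EY μ r (fun y => N y * (κ ^ 2 * ∑ i, ∑ j, ∑ k, pd (pd (f i) j) k y ^ 2)) := by
    rw [← EY_const_mul]
    congr 1
    funext y
    ring
  rw [e2]
  refine ey_mono hN (SB.sum _ fun e _ => SB.sum _ fun i _ => SB.sum _ fun j _ =>
    ((sbm_sf hf κ i j).pd e).pow 2) ((SB.sum _ fun i _ => SB.sum _ fun j _ => SB.sum _ fun k _ =>
    (((hf i).pd j).pd k).pow 2).const_mul _) fun y => ?_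
  have e3 : ∀ e i j, pd (fun z => Sf κ f z i j) e y
      = κ / 2 * (pd (pd (f i) j) e y + pd (pd (f j) i) e y) := by
    intro e i j
    have h1 : (fun z => Sf κ f z i j) = fun z => κ / 2 * (pd (f i) j z + pd (f j) i z) := rfl
    rw [h1]
    have h2 := H736.pd_const_mul (N := fun z => pd (f i) j z + pd (f j) i z)
      (((hf i).pd j).add ((hf j).pd i)).differentiable (κ / 2) e
    rw [h2]
    have h3 : pd (fun z => pd (f i) j z + pd (f j) i z) e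
        = fun z => pd (pd (f i) j) e z + pd (pd (f j) i) e z := by
      have h4 := H736.pdM_add (A := fun z => Matrix.of fun (_ _ : Fin 1) => pd (f i) j z)
        (B := fun z => Matrix.of fun (_ _ : Fin 1) => pd (f j) i z)
        (fun _ _ => (hf i).pd j) (fun _ _ => (hf j).pd i) e
      funext z
      have h5 := congrFun (congrFun (h4 z) 0) 0
      exact h5
    rw [h3]
  have e4 : ∀ e i j, pd (fun z => Sf κ f z i j) e y ^ 2
      ≤ κ ^ 2 / 2 * (pd (pd (f i) j) e y ^ 2 + pd (pd (f j) i) e y ^ 2) := by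
    intro e i j
    rw [e3]
    nlinarith [sq_nonneg (κ * (pd (pd (f i) j) e y - pd (pd (f j) i) e y))]
  calc ∑ e, ∑ i, ∑ j, pd (fun z => Sf κ f z i j) e y ^ 2
      ≤ ∑ e, ∑ i, ∑ j, κ ^ 2 / 2 * (pd (pd (f i) j) e y ^ 2 + pd (pd (f j) i) e y ^ 2) :=
        Finset.sum_le_sum fun e _ => Finset.sum_le_sum fun i _ => Finset.sum_le_sum fun j _ =>
          e4 e i j
    _ = κ ^ 2 * ∑ i, ∑ j, ∑ k, pd (pd (f i) j) k y ^ 2 := by
        have h6 : ∑ e, ∑ i, ∑ j, pd (pd (f i) j) e y ^ 2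
            = ∑ i, ∑ j, ∑ k, pd (pd (f i) j) k y ^ 2 := by
          rw [Finset.sum_comm]
          exact Finset.sum_congr rfl fun i _ => Finset.sum_comm
        have h7 : ∑ e, ∑ i, ∑ j, pd (pd (f j) i) e y ^ 2
            = ∑ i, ∑ j, ∑ k, pd (pd (f i) j) k y ^ 2 := by
          rw [← h6]
          exact Finset.sum_congr rfl fun e _ => Finset.sum_comm
        simp only [mul_add, Finset.sum_add_distrib, ← Finset.mul_sum]
        rw [h6, h7]; ring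

theorem mSq_PS_le (hN : Pos N) {S : (Fin n → ℝ) → Matrix (Fin n) (Fin n) ℝ} (hS : SBM S)
    (hsym : ∀ y, (S y)ᵀ = S y) {c : ℝ} (hc : 0 < c) :
    mSq μ r N (PS c S) ≤ mSq μ r N S / (4 * c ^ 2) := by
  unfold mSq
  have e2 : EY μ r (fun y => N y * fr (S y)) / (4 * c ^ 2)
      = EY μ r (fun y => N y * ((4 * c ^ 2)⁻¹ * fr (S y))) := by
    rw [div_eq_inv_mul, ← EY_const_mul]
    congr 1
    funext y
    ring
  rw [e2]
  refine ey_mono hN (sb_fr (sbm_PS hS hsym hc)) ((sb_fr hS).const_mul _) fun y => ?_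
  rw [← div_eq_inv_mul]
  exact fr_Ps_le (hsym y) hc

/-- `E tr(Aᵀ D²V A) ≤ |A|²/r` -/
theorem mFl_le {ρ0 : (Fin n → ℝ) → ℝ} {R : ℝ} (hLC : LCd ρ0) [IsProbabilityMeasure (mu ρ0)]
    (h : CSupp (mu ρ0) R) (hr : 0 < r) (hN : Pos N)
    {A : (Fin n → ℝ) → Matrix (Fin n) (Fin n) ℝ} (hA : SBM A) :
    mFl (mu ρ0) r N A ≤ mSq (mu ρ0) r N A / r := by
  have hP := fun k => thP n ρ0 R hLC inferInstance h r N (fun i y => A y i k)
    (fun i y => A y i k) hr hN (fun i => hA i k) (fun i => hA i k)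
  have hPVsb : ∀ i j, SB (PV (mu ρ0) r i j) := fun i j => ((thR' n (mu ρ0) R h).2.1 r i j hr).1
  have e1 : mFl (mu ρ0) r N A = ∑ k, BI (mu ρ0) r N (fun i y => A y i k)
      (fun i y => A y i k) := by
    unfold mFl BI
    rw [← EY_sum (mu ρ0) r Finset.univ fun k _ => hN.sb.mul (SB.sum _ fun i _ =>
      SB.sum _ fun j _ => ((hPVsb i j).mul (hA i k)).mul (hA j k))]
    congr 1
    funext y
    rw [Finset.mul_sum]
  have e2 : mSq (mu ρ0) r N A = ∑ k, IP (mu ρ0) r N (fun i y => A y i k)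
      (fun i y => A y i k) := by
    unfold mSq IP fr
    rw [← EY_sum (mu ρ0) r Finset.univ fun k _ => hN.sb.mul (SB.sum _ fun i _ =>
      (hA i k).mul (hA i k))]
    congr 1
    funext y
    rw [Finset.sum_comm, Finset.mul_sum]
    refine Finset.sum_congr rfl fun k _ => ?_
    congr 1
    refine Finset.sum_congr rfl fun i _ => ?_
    ring
  rw [e1, e2, Finset.sum_div]
  refine Finset.sum_le_sum fun k _ => ?_
  obtain ⟨h0, -, h2, -⟩ := hP k
  set B := BI (mu ρ0) r N (fun i y => A y i k) (fun i y => A y i k)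
  set P := IP (mu ρ0) r N (fun i y => A y i k) (fun i y => A y i k)
  rcases h0.eq_or_lt with hB | hB
  · rw [← hB]
    have hP0 : 0 ≤ P := by
      refine LS.EY_nonneg _ _ fun y => mul_nonneg ?_ (Finset.sum_nonneg fun i _ => mul_self_nonneg _)
      obtain ⟨ε, hε, hl⟩ := hN.lb
      exact hε.le.trans (hl y)
    positivity
  · have h3 : B * B ≤ (1 / r * P) * B := by nlinarith [h2]
    have h4 := le_of_mul_le_mul_right h3 hB
    rw [div_eq_inv_mul, ← one_div]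
    exact h4

theorem mSq_nonneg (hN : Pos N) (A : (Fin n → ℝ) → Matrix (Fin n) (Fin n) ℝ) :
    0 ≤ mSq μ r N A := by
  refine LS.EY_nonneg _ _ fun y => mul_nonneg ?_ (fr_nonneg _)
  obtain ⟨ε, hε, hl⟩ := hN.lb
  exact hε.le.trans (hl y)

theorem DE_nonneg (hN : Pos N) (f : Fin n → (Fin n → ℝ) → ℝ) : 0 ≤ DE μ r N f := by
  refine LS.EY_nonneg _ _ fun y => mul_nonneg ?_
    (Finset.sum_nonneg fun i _ => Finset.sum_nonneg fun j _ => sq_nonneg _)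
  obtain ⟨ε, hε, hl⟩ := hN.lb
  exact hε.le.trans (hl y)

theorem AA_nonneg (hN : Pos N) (f : Fin n → (Fin n → ℝ) → ℝ) : 0 ≤ AA μ r N f := by
  refine LS.EY_nonneg _ _ fun y => mul_nonneg ?_
    (Finset.sum_nonneg fun i _ => Finset.sum_nonneg fun j _ => sq_nonneg _)
  obtain ⟨ε, hε, hl⟩ := hN.lb
  exact hε.le.trans (hl y)

/-- second moment of `P_1(S)` at a good level -/
theorem crack_q {f : Fin n → (Fin n → ℝ) → ℝ} (hN : Pos N) (hf : ∀ i, SB (f i)) {κ h F : ℝ}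
    (hκ : 0 < κ) (hh : h ≤ 1) (hF : 0 ≤ F) (he : 2 * κ * DE μ r N f ≤ (1 + h) * F) :
    mSq μ r N (PS 1 (Sf κ f)) ≤ κ * F / 4 := by
  have h1 := mSq_PS_le (μ := μ) (r := r) hN (sbm_sf hf κ) (sf_symm κ f) one_pos
  rw [mSq_sf hN hf κ] at h1
  have h2 := AA_nonneg (μ := μ) (r := r) hN f
  have h3 : κ ^ 2 * DE μ r N f ≤ κ * F := by
    have k1 := mul_le_mul_of_nonneg_left he (by positivity : 0 ≤ κ / 2)
    have k2 : (1 + h) * F ≤ 2 * F := mul_le_mul_of_nonneg_right (by linarith) hF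
    have k3 := mul_le_mul_of_nonneg_left k2 (by positivity : 0 ≤ κ / 2)
    linarith
  have h4 : 0 ≤ κ ^ 2 * AA μ r N f := by positivity
  have e : κ ^ 2 * (DE μ r N f - AA μ r N f / 4) / (4 * 1 ^ 2)
      = (κ ^ 2 * DE μ r N f) / 4 - κ ^ 2 * AA μ r N f / 16 := by ring
  rw [e] at h1
  linarith

/-- **the divergence budget in the crack step** -/
theorem crack_dvb {ρ0 : (Fin n → ℝ) → ℝ} {R : ℝ} (hLC : LCd ρ0) [IsProbabilityMeasure (mu ρ0)]
    (hμ : CSupp (mu ρ0) R) (hr : 0 < r) (hN : Pos N)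
    {f : Fin n → (Fin n → ℝ) → ℝ} (hf : ∀ i, SB (f i)) {κ C0 h F : ℝ}
    (hκ : 0 < κ) (hC : 4 ≤ C0) (hb : 2 * (κ / C0) ≤ r) (hh : h ≤ 1) (hF : 0 ≤ F)
    (he : 2 * κ * DE (mu ρ0) r N f ≤ (1 + h) * F)
    (hD : 2 * κ * H991.D2 (mu ρ0) r N f ≤ (1 + h) * DE (mu ρ0) r N f)
    (hG : 2 * κ * GA (mu ρ0) r N ≤ (1 + h) * F) (hG0 : 0 ≤ GA (mu ρ0) r N) :
    mDE (mu ρ0) r N (PS 1 (Sf κ f)) + mFl (mu ρ0) r N (PS 1 (Sf κ f))
      + Real.sqrt (GA (mu ρ0) r N) * Real.sqrt (mSq (mu ρ0) r N (PS 1 (Sf κ f))) ≤ C0 * F := by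
  have hC0 : 0 < C0 := by linarith
  have hSB := sbm_sf hf κ
  have hsy := sf_symm κ f
  have h1 := mDE_PS_le (μ := mu ρ0) (r := r) hN hSB hsy one_pos
  have h2 := mDE_Sf_le (μ := mu ρ0) (r := r) hN hf κ
  have h3 := mFl_le hLC hμ hr hN (sbm_PS hSB hsy one_pos)
  have h4 := crack_q (μ := mu ρ0) (r := r) hN hf hκ hh hF he
  have hq0 := mSq_nonneg (μ := mu ρ0) (r := r) hN (PS 1 (Sf κ f))
  set q := mSq (mu ρ0) r N (PS 1 (Sf κ f))
  set e := DE (mu ρ0) r N f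
  set D := H991.D2 (mu ρ0) r N f
  set G := GA (mu ρ0) r N
  have h5 : mDE (mu ρ0) r N (PS 1 (Sf κ f)) ≤ F := by
    have he0 : 0 ≤ e := DE_nonneg hN f
    have h6 : κ ^ 2 * D ≤ κ * e := by
      have k1 := mul_le_mul_of_nonneg_left hD (by positivity : 0 ≤ κ / 2)
      have k2 : (1 + h) * e ≤ 2 * e := mul_le_mul_of_nonneg_right (by linarith) he0
      have k3 := mul_le_mul_of_nonneg_left k2 (by positivity : 0 ≤ κ / 2)
      linarith
    have h7 : κ * e ≤ F := by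
      have k2 : (1 + h) * F ≤ 2 * F := mul_le_mul_of_nonneg_right (by linarith) hF
      linarith
    have h8 : mDE (mu ρ0) r N (PS 1 (Sf κ f)) ≤ mDE (mu ρ0) r N (Sf κ f) := by
      simpa using h1
    linarith
  have h9 : mFl (mu ρ0) r N (PS 1 (Sf κ f)) ≤ C0 * F / 8 := by
    refine h3.trans ?_
    rw [div_le_iff₀ hr]
    have h10 : C0 * F / 8 * (2 * (κ / C0)) ≤ C0 * F / 8 * r :=
      mul_le_mul_of_nonneg_left hb (by positivity)
    have e10 : C0 * F / 8 * (2 * (κ / C0)) = κ * F / 4 := by field_simp; ring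
    linarith
  have h11 : Real.sqrt G * Real.sqrt q ≤ F / 2 := by
    rw [← Real.sqrt_mul hG0]
    refine Real.sqrt_le_iff.2 ⟨by positivity, ?_⟩
    have h12 : G * q ≤ G * (κ * F / 4) := mul_le_mul_of_nonneg_left h4 hG0
    have h13 : G * (κ * F / 4) = (2 * κ * G) * F / 8 := by ring
    have h14 : (2 * κ * G) * F / 8 ≤ (2 * F) * F / 8 := by
      have h15 : 2 * κ * G ≤ 2 * F := by nlinarith
      have := mul_le_mul_of_nonneg_right h15 hF
      linarith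
    nlinarith
  nlinarith [mul_nonneg hC0.le hF]

end Vale.Agent.P245.H676
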