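import Vale.Agent.P254.SP.H620.DK
import Vale.Agent.P245.H792.Sym

/-!
# Row CRACKS, matrix half, pointwise part
-/

open Matrix Finset

noncomputable section

namespace Vale.Agent.P245.H676

open Vale.Agent.P254.S130 Vale.Agent.P254.SP620 Vale.Agent.P245.H792

variable {ι : Type*} [Fintype ι] [DecidableEq ι]

lemma fr_mul_orth {U : Matrix ι ι ℝ} (hU : Uᵀ * U = 1) (X : Matrix ι ι ℝ) :
    fr (X * U) = fr X := by
  have h := fr_orth (U := (1 : Matrix ι ι ℝ)) (V := U) (by simp) hU X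
  simpa using h

/-- `fr (X F(S))` in the frame of `S` -/
lemma fr_mul_mf {S U : Matrix ι ι ℝ} {m : ι → ℝ} (h : Dec S U m) (F : ℝ → ℝ)
    (X : Matrix ι ι ℝ) : fr (X * mf F S) = ∑ i, ∑ j, (X * U) i j ^ 2 * F (m j) ^ 2 := by
  rw [← fr_mul_orth h.orth (X * mf F S), h.mf_eq]
  have e : X * (U * diagonal (fun i => F (m i)) * Uᵀ) * U
      = (X * U) * diagonal (fun i => F (m i)) := by
    calc X * (U * diagonal (fun i => F (m i)) * Uᵀ) * U
        = X * U * diagonal (fun i => F (m i)) * (Uᵀ * U) := by simp only [Matrix.mul_assoc]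
      _ = _ := by rw [h.orth, Matrix.mul_one]
  rw [e]
  unfold fr
  refine Finset.sum_congr rfl fun i _ => Finset.sum_congr rfl fun j _ => ?_
  rw [mul_diagonal]
  ring

lemma one_sub_mf {S U : Matrix ι ι ℝ} {m : ι → ℝ} (h : Dec S U m) (F : ℝ → ℝ) :
    1 - mf F S = mf (fun x => 1 - F x) S := by
  rw [h.mf_sub (fun _ => 1) F, h.mf_const 1, one_smul]

/-- `tr (S² F(S)) = Σ m_j² F(m_j)` -/
lemma trace_sq_mf {S U : Matrix ι ι ℝ} {m : ι → ℝ} (h : Dec S U m) (F : ℝ → ℝ) :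
    (S * S * mf F S).trace = ∑ j, m j ^ 2 * F (m j) := by
  have e : S * S * mf F S = mf (fun x => x * x * F x) S := by
    rw [h.mf_mul (fun x => x * x) F |>.symm, h.mf_mul (fun x => x) (fun x => x) |>.symm,
      h.mf_id]
  rw [e, h.mf_trace]
  refine Finset.sum_congr rfl fun j _ => ?_
  ring

lemma sum_sq_col {S U : Matrix ι ι ℝ} {m : ι → ℝ} (h : Dec S U m) (c : ι → ℝ) :
    ∑ i, ∑ j, (S * U) i j ^ 2 * c j = ∑ j, m j ^ 2 * c j := by
  have e : S * U = U * diagonal m := by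
    rw [h.eq, Matrix.mul_assoc, h.orth, Matrix.mul_one]
  have h1 : ∀ j, ∑ i, U i j ^ 2 = 1 := by
    intro j
    have h2 : (Uᵀ * U) j j = 1 := by rw [h.orth, one_apply_eq]
    rw [mul_apply] at h2
    rw [← h2]
    refine Finset.sum_congr rfl fun i _ => ?_
    rw [transpose_apply]; ring
  rw [Finset.sum_comm]
  refine Finset.sum_congr rfl fun j _ => ?_
  rw [e]
  simp only [mul_diagonal]
  have e3 : ∀ i, (U i j * m j) ^ 2 * c j = U i j ^ 2 * (m j ^ 2 * c j) := fun i => by ring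
  simp only [e3, ← Finset.sum_mul]
  rw [h1 j, one_mul]

/-- **CRM1**, pointwise: `tr(S² Q) ≤ (1+d) κ² (|G|² - |G(1-Q)|²) + (1+1/d) κ²/4 |G-Gᵀ|²`
for `S = κ sym G`, `Q = F(S)`, `0 ≤ F ≤ 1`. -/
theorem crm_pt {G S : Matrix ι ι ℝ} {κ d : ℝ} {F : ℝ → ℝ} (hF0 : ∀ x, 0 ≤ F x)
    (hF1 : ∀ x, F x ≤ 1) (hS : S = (κ / 2) • (G + Gᵀ)) (hd : 0 < d) :
    (S * S * mf F S).trace ≤ (1 + d) * κ ^ 2 * (fr G - fr (G * (1 - mf F S)))
      + (1 + 1 / d) * (κ ^ 2 / 4) * fr (G - Gᵀ) := by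
  have hSs : Sᵀ = S := by
    rw [hS, transpose_smul, transpose_add, transpose_transpose, add_comm]
  obtain ⟨U, m, h⟩ := exists_dec hSs
  rw [one_sub_mf h, fr_mul_mf h, trace_sq_mf h, ← sum_sq_col h, ← fr_mul_orth h.orth G,
    ← fr_mul_orth h.orth (G - Gᵀ)]
  unfold fr
  rw [← Finset.sum_sub_distrib, Finset.mul_sum, Finset.mul_sum, ← Finset.sum_add_distrib]
  refine Finset.sum_le_sum fun i _ => ?_
  rw [← Finset.sum_sub_distrib, Finset.mul_sum, Finset.mul_sum, ← Finset.sum_add_distrib]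
  refine Finset.sum_le_sum fun j _ => ?_
  have e1 : (S * U) i j = κ * (G * U) i j - κ / 2 * ((G - Gᵀ) * U) i j := by
    have e2 : S = κ • G - (κ / 2) • (G - Gᵀ) := by
      rw [hS]
      ext a b
      simp only [Matrix.smul_apply, Matrix.add_apply, Matrix.sub_apply, smul_eq_mul,
        transpose_apply]
      ring
    rw [e2, Matrix.sub_mul, Matrix.smul_mul, Matrix.smul_mul, Matrix.sub_apply,
      Matrix.smul_apply, Matrix.smul_apply, smul_eq_mul, smul_eq_mul]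
  set x := (G * U) i j
  set z := ((G - Gᵀ) * U) i j
  set p := F (m j) with hp
  have hp0 : 0 ≤ p := hF0 _
  have hp1 : p ≤ 1 := hF1 _
  rw [e1]
  have h1 : (κ * x - κ / 2 * z) ^ 2 ≤ (1 + d) * (κ * x) ^ 2 + (1 + 1 / d) * (κ / 2 * z) ^ 2 := by
    have h2 : (1 + d) * (κ * x) ^ 2 + (1 + 1 / d) * (κ / 2 * z) ^ 2 - (κ * x - κ / 2 * z) ^ 2
        = (d * (κ * x) + κ / 2 * z) ^ 2 / d := by
      field_simp
      ring
    have h3 : 0 ≤ (d * (κ * x) + κ / 2 * z) ^ 2 / d := by positivity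
    linarith
  have hr0 : 0 ≤ 1 - (1 - p) ^ 2 := by nlinarith
  have hr1 : p ≤ 1 - (1 - p) ^ 2 := by nlinarith
  have hr2 : 1 - (1 - p) ^ 2 ≤ 1 := by nlinarith [sq_nonneg (1 - p)]
  have h4 : (κ * x - κ / 2 * z) ^ 2 * p ≤ (κ * x - κ / 2 * z) ^ 2 * (1 - (1 - p) ^ 2) :=
    mul_le_mul_of_nonneg_left hr1 (sq_nonneg _)
  have h5 : (κ * x - κ / 2 * z) ^ 2 * (1 - (1 - p) ^ 2)
      ≤ ((1 + d) * (κ * x) ^ 2 + (1 + 1 / d) * (κ / 2 * z) ^ 2) * (1 - (1 - p) ^ 2) :=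
    mul_le_mul_of_nonneg_right h1 hr0
  have h6 : (1 + 1 / d) * (κ / 2 * z) ^ 2 * (1 - (1 - p) ^ 2)
      ≤ (1 + 1 / d) * (κ / 2 * z) ^ 2 :=
    mul_le_of_le_one_right (by positivity) hr2
  have e7 : (1 + d) * κ ^ 2 * (x ^ 2 - x ^ 2 * (1 - p) ^ 2)
      = (1 + d) * (κ * x) ^ 2 * (1 - (1 - p) ^ 2) := by ring
  have e8 : (1 + 1 / d) * (κ ^ 2 / 4) * z ^ 2 = (1 + 1 / d) * (κ / 2 * z) ^ 2 := by ring
  rw [e7, e8]
  nlinarith [h4, h5, h6]

omit [DecidableEq ι] in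
/-- `4 |S|² = κ² (4 |G|² - |G - Gᵀ|²)` -/
theorem fr_sym {G S : Matrix ι ι ℝ} {κ : ℝ} (hS : S = (κ / 2) • (G + Gᵀ)) :
    fr S = κ ^ 2 * (fr G - fr (G - Gᵀ) / 4) := by
  have h1 : fr (G + Gᵀ) + fr (G - Gᵀ) = 4 * fr G := by
    unfold fr
    have e2 : ∑ i, ∑ j, G j i ^ 2 = ∑ i, ∑ j, G i j ^ 2 := Finset.sum_comm
    have e3 : ∑ i, ∑ j, (G + Gᵀ) i j ^ 2 + ∑ i, ∑ j, (G - Gᵀ) i j ^ 2
        = 2 * ∑ i, ∑ j, G i j ^ 2 + 2 * ∑ i, ∑ j, G j i ^ 2 := by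
      simp only [Matrix.add_apply, Matrix.sub_apply, transpose_apply, Finset.mul_sum]
      rw [← Finset.sum_add_distrib, ← Finset.sum_add_distrib]
      refine Finset.sum_congr rfl fun i _ => ?_
      rw [← Finset.sum_add_distrib, ← Finset.sum_add_distrib]
      refine Finset.sum_congr rfl fun j _ => ?_
      ring
    rw [e3, e2]; ring
  have h2 : fr S = (κ / 2) ^ 2 * fr (G + Gᵀ) := by
    rw [hS]
    unfold fr
    rw [Finset.mul_sum]
    refine Finset.sum_congr rfl fun i _ => ?_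
    rw [Finset.mul_sum]
    refine Finset.sum_congr rfl fun j _ => ?_
    rw [Matrix.smul_apply, smul_eq_mul]; ring
  rw [h2]
  have h3 : fr (G + Gᵀ) = 4 * fr G - fr (G - Gᵀ) := by linarith
  rw [h3]; ring

/-- `|Q|² ≤ |S|²/(4 b²)` for `Q = P_b(S)` -/
theorem fr_Ps_le {S : Matrix ι ι ℝ} (hS : Sᵀ = S) {b : ℝ} (hb : 0 < b) :
    fr (mf (Ps b) S) ≤ fr S / (4 * b ^ 2) := by
  obtain ⟨U, m, h⟩ := exists_dec hS
  have e1 : fr (mf (Ps b) S) = ∑ j, Ps b (m j) ^ 2 := by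
    have h1 := fr_mul_mf h (Ps b) (1 : Matrix ι ι ℝ)
    rw [Matrix.one_mul, Matrix.one_mul] at h1
    rw [h1, Finset.sum_comm]
    refine Finset.sum_congr rfl fun j _ => ?_
    rw [← Finset.sum_mul]
    have h2 : (Uᵀ * U) j j = 1 := by rw [h.orth, one_apply_eq]
    rw [mul_apply] at h2
    have h3 : ∑ i, U i j ^ 2 = 1 := by
      rw [← h2]
      refine Finset.sum_congr rfl fun i _ => ?_
      rw [transpose_apply]; ring
    rw [h3, one_mul]
  have e2 : fr S = ∑ j, m j ^ 2 := by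
    have h1 := fr_mul_orth h.orth S
    rw [← h1]
    have h2 := sum_sq_col h (fun _ => 1)
    simpa [fr] using h2
  rw [e1, e2, Finset.sum_div]
  refine Finset.sum_le_sum fun j _ => ?_
  unfold Ps
  have h4 : 0 < b ^ 2 + m j ^ 2 := by positivity
  rw [div_pow, div_le_div_iff₀ (by positivity) (by positivity)]
  nlinarith [sq_nonneg (b ^ 2 - m j ^ 2), sq_nonneg (m j), mul_nonneg (sq_nonneg (m j)) (sq_nonneg (b ^ 2 - m j ^ 2))]

end Vale.Agent.P245.H676
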