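import Vale.Agent.P245.H676.Cr1
import Vale.Agent.P245.H736.PSf
import Vale.Agent.P245.H485.FinDefs
import Vale.Agent.P245.H719.Sym

/-!
# Row CRACKS, matrix half, integrated part; the divergence bound
-/

set_option linter.unusedSectionVars false

open Matrix Finset MeasureTheory

noncomputable section

namespace Vale.Agent.P245.H676

open Vale.Agent.P245 Vale.Agent.P245.LS Vale.Agent.P245.E1
open Vale.Agent.P254.S130 Vale.Agent.P254.SP620 Vale.Agent.P245.H792 Vale.Agent.P245.H736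
open Vale.Agent.P245.H485 Vale.Agent.P245.H719

variable {n : ℕ} {μ : Measure (Fin n → ℝ)} [IsProbabilityMeasure μ] {r : ℝ}
  {N : (Fin n → ℝ) → ℝ}

theorem sb_fr {A : (Fin n → ℝ) → Matrix (Fin n) (Fin n) ℝ} (hA : SBM A) :
    SB fun y => fr (A y) :=
  SB.sum _ fun i _ => SB.sum _ fun j _ => (hA i j).pow 2

theorem ey_mono (hN : Pos N) {Φ Ψ : (Fin n → ℝ) → ℝ} (hΦ : SB Φ) (hΨ : SB Ψ)
    (h : ∀ y, Φ y ≤ Ψ y) :
    EY μ r (fun y => N y * Φ y) ≤ EY μ r (fun y => N y * Ψ y) := by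
  obtain ⟨ε, hε, hl⟩ := hN.lb
  exact EY_mono_bm ⟨(hN.sb.mul hΦ).measurable, (hN.sb.mul hΦ).bdd⟩
    ⟨(hN.sb.mul hΨ).measurable, (hN.sb.mul hΨ).bdd⟩ fun y =>
    mul_le_mul_of_nonneg_left (h y) (hε.le.trans (hl y))

theorem ey_lin (hN : Pos N) {Φ Ψ : (Fin n → ℝ) → ℝ} (hΦ : SB Φ) (hΨ : SB Ψ) (a b : ℝ) :
    EY μ r (fun y => N y * (a * Φ y + b * Ψ y))
      = a * EY μ r (fun y => N y * Φ y) + b * EY μ r (fun y => N y * Ψ y) := by
  have e : (fun y => N y * (a * Φ y + b * Ψ y)) = fun y => a * (N y * Φ y) + b * (N y * Ψ y) := by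
    funext y; ring
  rw [e, EY_add μ r ((hN.sb.mul hΦ).const_mul a) ((hN.sb.mul hΨ).const_mul b), EY_const_mul,
    EY_const_mul]

/-- the Jacobian matrix of a field -/
def jac (f : Fin n → (Fin n → ℝ) → ℝ) (y : Fin n → ℝ) : Matrix (Fin n) (Fin n) ℝ :=
  Matrix.of fun i j => pd (f i) j y

theorem jac_apply (f : Fin n → (Fin n → ℝ) → ℝ) (y : Fin n → ℝ) (i j : Fin n) :
    jac f y i j = pd (f i) j y := rfl

theorem sf_eq (κ : ℝ) (f : Fin n → (Fin n → ℝ) → ℝ) (y : Fin n → ℝ) :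
    Sf κ f y = (κ / 2) • (jac f y + (jac f y)ᵀ) := by
  ext i j
  rfl

theorem sf_symm (κ : ℝ) (f : Fin n → (Fin n → ℝ) → ℝ) (y : Fin n → ℝ) :
    (Sf κ f y)ᵀ = Sf κ f y := by
  ext i j
  show κ / 2 * (pd (f j) i y + pd (f i) j y) = κ / 2 * (pd (f i) j y + pd (f j) i y)
  ring

theorem sbm_jac {f : Fin n → (Fin n → ℝ) → ℝ} (hf : ∀ i, SB (f i)) : SBM (jac f) :=
  fun i j => (hf i).pd j

theorem sbm_sf {f : Fin n → (Fin n → ℝ) → ℝ} (hf : ∀ i, SB (f i)) (κ : ℝ) : SBM (Sf κ f) :=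
  fun i j => (((hf i).pd j).add ((hf j).pd i)).const_mul (κ / 2)

theorem fr_jac_eq (f : Fin n → (Fin n → ℝ) → ℝ) (y : Fin n → ℝ) :
    fr (jac f y) = ∑ i, ∑ j, pd (f i) j y ^ 2 := rfl

theorem fr_jac_sub (f : Fin n → (Fin n → ℝ) → ℝ) (y : Fin n → ℝ) :
    fr (jac f y - (jac f y)ᵀ) = ∑ j, ∑ k, (pd (f k) j y - pd (f j) k y) ^ 2 := by
  unfold fr
  refine Finset.sum_congr rfl fun i _ => Finset.sum_congr rfl fun j _ => ?_
  rw [Matrix.sub_apply, transpose_apply, jac_apply, jac_apply]; ring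

theorem fr_jac_mul {Q : Matrix (Fin n) (Fin n) ℝ} (hQ : Qᵀ = Q) (f : Fin n → (Fin n → ℝ) → ℝ)
    (y : Fin n → ℝ) :
    fr (jac f y * (1 - Q)) = ∑ e, ∑ i, (pd (f i) e y - ∑ g, Q e g * pd (f i) g y) ^ 2 := by
  unfold fr
  rw [Finset.sum_comm]
  refine Finset.sum_congr rfl fun e _ => Finset.sum_congr rfl fun i _ => ?_
  rw [Matrix.mul_sub, Matrix.mul_one, Matrix.sub_apply, Matrix.mul_apply, jac_apply]
  congr 2
  refine Finset.sum_congr rfl fun g _ => ?_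
  rw [jac_apply]
  have h : Q g e = Q e g := by
    have := congrFun (congrFun hQ e) g
    rwa [transpose_apply] at this
  rw [h]; ring

/-- the second moment of `S = κ sym Df` -/
theorem mSq_sf {f : Fin n → (Fin n → ℝ) → ℝ} (hN : Pos N) (hf : ∀ i, SB (f i)) (κ : ℝ) :
    mSq μ r N (Sf κ f) = κ ^ 2 * (DE μ r N f - AA μ r N f / 4) := by
  have e1 : ∀ y, fr (Sf κ f y) = κ ^ 2 * (∑ i, ∑ j, pd (f i) j y ^ 2)
      + (-(κ ^ 2 / 4)) * ∑ j, ∑ k, (pd (f k) j y - pd (f j) k y) ^ 2 := by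
    intro y
    rw [fr_sym (G := jac f y) (S := Sf κ f y) (κ := κ) (sf_eq κ f y), fr_jac_eq, fr_jac_sub]; ring
  have h1 : SB fun y => ∑ i, ∑ j, pd (f i) j y ^ 2 :=
    SB.sum _ fun i _ => SB.sum _ fun j _ => ((hf i).pd j).pow 2
  have h2 : SB fun y => ∑ j, ∑ k, (pd (f k) j y - pd (f j) k y) ^ 2 :=
    SB.sum _ fun j _ => SB.sum _ fun k _ => (((hf k).pd j).sub ((hf j).pd k)).pow 2
  unfold mSq
  simp only [e1]
  rw [ey_lin hN h1 h2]
  unfold DE AA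
  ring

/-- **CRM2**: `E tr(S² Q) ≤ (1+d) κ² (|Df|² - |Df(1-Q)|²) + (1+1/d) κ²/4 |A|²`. -/
theorem crm2 {f : Fin n → (Fin n → ℝ) → ℝ} (hN : Pos N) (hf : ∀ i, SB (f i)) {κ d : ℝ}
    (hd : 0 < d) {F : ℝ → ℝ} (hF0 : ∀ x, 0 ≤ F x) (hF1 : ∀ x, F x ≤ 1)
    (hQ : SBM fun y => mf F (Sf κ f y)) :
    EY μ r (fun y => N y * (Sf κ f y * Sf κ f y * mf F (Sf κ f y)).trace)
      ≤ (1 + d) * κ ^ 2 * (DE μ r N f - vRE μ r N f (fun y => mf F (Sf κ f y)))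
        + (1 + 1 / d) * (κ ^ 2 / 4) * AA μ r N f := by
  have h1 : SB fun y => ∑ i, ∑ j, pd (f i) j y ^ 2 :=
    SB.sum _ fun i _ => SB.sum _ fun j _ => ((hf i).pd j).pow 2
  have h2 : SB fun y => ∑ j, ∑ k, (pd (f k) j y - pd (f j) k y) ^ 2 :=
    SB.sum _ fun j _ => SB.sum _ fun k _ => (((hf k).pd j).sub ((hf j).pd k)).pow 2
  have h3 : SB fun y => ∑ e, ∑ i,
      (pd (f i) e y - ∑ g, mf F (Sf κ f y) e g * pd (f i) g y) ^ 2 :=
    SB.sum _ fun e _ => SB.sum _ fun i _ => (((hf i).pd e).sub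
      (SB.sum _ fun g _ => (hQ e g).mul ((hf i).pd g))).pow 2
  have h0 : SB fun y => (Sf κ f y * Sf κ f y * mf F (Sf κ f y)).trace :=
    (((sbm_sf hf κ).mul (sbm_sf hf κ)).mul hQ).trace
  have h4 : SB fun y => (1 + d) * κ ^ 2 * (∑ i, ∑ j, pd (f i) j y ^ 2)
      + (-((1 + d) * κ ^ 2)) * ∑ e, ∑ i,
        (pd (f i) e y - ∑ g, mf F (Sf κ f y) e g * pd (f i) g y) ^ 2 :=
    (h1.const_mul _).add (h3.const_mul _)
  have hpt : ∀ y, (Sf κ f y * Sf κ f y * mf F (Sf κ f y)).trace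
      ≤ 1 * ((1 + d) * κ ^ 2 * (∑ i, ∑ j, pd (f i) j y ^ 2)
      + (-((1 + d) * κ ^ 2)) * ∑ e, ∑ i,
        (pd (f i) e y - ∑ g, mf F (Sf κ f y) e g * pd (f i) g y) ^ 2)
      + (1 + 1 / d) * (κ ^ 2 / 4) * ∑ j, ∑ k, (pd (f k) j y - pd (f j) k y) ^ 2 := by
    intro y
    have h5 := crm_pt (G := jac f y) (S := Sf κ f y) (κ := κ) (d := d) hF0 hF1
      (sf_eq κ f y) hd
    rw [fr_jac_eq, fr_jac_sub, fr_jac_mul (mf_symm' (sf_symm κ f y) F)] at h5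
    refine h5.trans (le_of_eq ?_)
    ring
  have h6 := ey_mono (μ := μ) (r := r) hN h0 ((h4.const_mul 1).add (h2.const_mul _)) hpt
  refine h6.trans (le_of_eq ?_)
  rw [ey_lin hN h4 h2, ey_lin hN h1 h3]
  unfold DE AA vRE
  ring

/-- Cauchy-Schwarz under the law `N p_r`, in the form `(E ΣΣ X Y)² ≤ E|X|² E|Y|²` -/
theorem ey_cs (hN : Pos N) {κ' : Type*} [Fintype κ'] {X Y : κ' → (Fin n → ℝ) → ℝ}
    (hX : ∀ k, SB (X k)) (hY : ∀ k, SB (Y k)) :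
    (EY μ r fun y => N y * ∑ k, X k y * Y k y) ^ 2
      ≤ (EY μ r fun y => N y * ∑ k, X k y ^ 2) * EY μ r fun y => N y * ∑ k, Y k y ^ 2 := by
  have hN0 : ∀ y, 0 ≤ N y := by
    obtain ⟨ε, hε, hl⟩ := hN.lb
    intro y
    exact hε.le.trans (hl y)
  have h1 : SB fun y => ∑ k, X k y ^ 2 := SB.sum _ fun k _ => (hX k).pow 2
  have h2 : SB fun y => ∑ k, Y k y ^ 2 := SB.sum _ fun k _ => (hY k).pow 2
  have h3 : SB fun y => ∑ k, X k y * Y k y := SB.sum _ fun k _ => (hX k).mul (hY k)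
  set a := EY μ r fun y => N y * ∑ k, X k y ^ 2 with ha
  set b := EY μ r fun y => N y * ∑ k, X k y * Y k y with hb
  set c := EY μ r fun y => N y * ∑ k, Y k y ^ 2 with hc
  have hpos : ∀ t : ℝ, 0 ≤ c * (t * t) + 2 * b * t + a := by
    intro t
    have h4 : 0 ≤ EY μ r fun y => N y * ∑ k, (X k y + t * Y k y) ^ 2 :=
      LS.EY_nonneg μ r fun y => mul_nonneg (hN0 y) (Finset.sum_nonneg fun k _ => sq_nonneg _)
    have e : (fun y => N y * ∑ k, (X k y + t * Y k y) ^ 2)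
        = fun y => N y * (1 * (1 * (∑ k, X k y ^ 2) + (2 * t) * ∑ k, X k y * Y k y)
          + t ^ 2 * ∑ k, Y k y ^ 2) := by
      funext y
      congr 1
      rw [Finset.mul_sum, Finset.mul_sum, Finset.mul_sum, one_mul, ← Finset.sum_add_distrib,
        ← Finset.sum_add_distrib]
      refine Finset.sum_congr rfl fun k _ => ?_
      ring
    rw [e, ey_lin hN ((h1.const_mul 1).add (h3.const_mul _)) h2, ey_lin hN h1 h3] at h4
    rw [← ha, ← hb, ← hc] at h4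
    nlinarith [h4]
  have h5 := discrim_le_zero hpos
  unfold discrim at h5
  nlinarith [h5]

end Vale.Agent.P245.H676
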