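import Mathlib
import Vale.Agent.P245.Bdl.B2

set_option linter.all false

/-! # TB1: derivative of `E_q |D f|²` for `UL`-fields `f` along the down path -/

open MeasureTheory Real Set Filter Topology
open scoped ENNReal ContDiff

namespace Vale.Agent.P245.H676

open LS LS.Down E1

variable {n : ℕ}

/-- `E_q |D²f|²` -/
noncomputable def D2E {ι : Type*} [Fintype ι] (μ : Measure (Fin n → ℝ)) (r : ℝ)
    (N : (Fin n → ℝ) → ℝ) (φ : ι → (Fin n → ℝ) → ℝ) : ℝ :=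
  EY μ r fun y => N y * ∑ i, ∑ j, ∑ k, pd (pd (φ i) j) k y ^ 2

variable {μ : Measure (Fin n → ℝ)} [IsProbabilityMeasure μ] {R : ℝ} {I : Set ℝ}

/-- product of two up flows (with sources) against the heat semigroup run backwards -/
theorem down_mul_src {U e U' e' : ℝ → (Fin n → ℝ) → ℝ} {a a' : Fin n → ℝ → (Fin n → ℝ) → ℝ}
    (h : Um μ I U e a) (h' : Um μ I U' e' a') (hμ : CSupp μ R) (hI : IsOpen I)
    (hI0 : I ⊆ Ioi 0) {N : (Fin n → ℝ) → ℝ} (hN : SB N) {c σ : ℝ} (hσ : σ ∈ I) (hc : σ < c) :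
    HasDerivAt (fun σ => EY μ σ (fun y => PH (c - σ) N y * (U σ y * U' σ y)))
      (EY μ σ (fun y => PH (c - σ) N y *
        (e σ y * U' σ y + U σ y * e' σ y - ∑ j, a j σ y * a' j σ y))) σ := by
  have hJ : IsOpen (I ∩ Iio c) := hI.inter isOpen_Iio
  have hJ0 : I ∩ Iio c ⊆ Ioi 0 := fun x hx => hI0 hx.1
  have key := EY_dual hμ hJ hJ0 ((h.mono inter_subset_left).mul (h'.mono inter_subset_left))
      ((Dn_PH hN c).mono inter_subset_right) ⟨hσ, hc⟩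
  have e0 : (fun σ => EY μ σ (fun y => PH (c - σ) N y * (U σ y * U' σ y)))
      = fun σ => EY μ σ (fun y => (U σ y * U' σ y) * PH (c - σ) N y) := by
    funext τ; congr 1; funext y; rw [mul_comm]
  rw [e0]
  refine key.congr_deriv ?_
  congr 1
  funext y
  ring

/-- sum of squares of up flows (with sources) against the heat semigroup run backwards -/
theorem down_sq_src {κ : Type*} (t : Finset κ) {U e : κ → ℝ → (Fin n → ℝ) → ℝ}
    {U1 : κ → Fin n → ℝ → (Fin n → ℝ) → ℝ}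
    (h : ∀ k ∈ t, Um μ I (U k) (e k) (U1 k)) (hμ : CSupp μ R) (hI : IsOpen I)
    (hI0 : I ⊆ Ioi 0) {N : (Fin n → ℝ) → ℝ} (hN : SB N) {c σ : ℝ} (hσ : σ ∈ I) (hc : σ < c) :
    HasDerivAt (fun σ => EY μ σ (fun y => PH (c - σ) N y * ∑ k ∈ t, U k σ y ^ 2))
      (EY μ σ (fun y => PH (c - σ) N y *
        ∑ k ∈ t, (2 * (e k σ y * U k σ y) - ∑ j, U1 k j σ y ^ 2))) σ := by
  have hJ : IsOpen (I ∩ Iio c) := hI.inter isOpen_Iio
  have hJ0 : I ∩ Iio c ⊆ Ioi 0 := fun x hx => hI0 hx.1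
  have hd : ∀ k ∈ t, Um μ (I ∩ Iio c) (U k) (e k) (U1 k) := fun k hk =>
    (h k hk).mono inter_subset_left
  have key := EY_dual hμ hJ hJ0 (Um.sum t fun k hk => (hd k hk).mul (hd k hk))
      ((Dn_PH hN c).mono inter_subset_right) ⟨hσ, hc⟩
  have e0 : (fun σ => EY μ σ (fun y => PH (c - σ) N y * ∑ k ∈ t, U k σ y ^ 2))
      = fun σ => EY μ σ (fun y => (∑ k ∈ t, U k σ y * U k σ y) * PH (c - σ) N y) := by
    funext τ; congr 1; funext y; rw [mul_comm]; congr 1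
    apply Finset.sum_congr rfl; intro i _; ring
  rw [e0]
  refine key.congr_deriv ?_
  congr 1
  funext y
  rw [mul_zero, add_zero, mul_comm]
  congr 1
  apply Finset.sum_congr rfl; intro k _
  have e1 : ∑ j, U1 k j σ y * U1 k j σ y = ∑ j, U1 k j σ y ^ 2 :=
    Finset.sum_congr rfl fun j _ => by ring
  rw [e1]
  ring

section

variable {s T : ℝ}

/-- second derivatives of the lift inside the open half line of levels -/
theorem pd_pd_UL (hμ : CSupp μ R) (hs : 0 < s) {h : (Fin n → ℝ) → ℝ} (hh : SB h) {ρ : ℝ}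
    (hρ : ρ ∈ Ioi s) (i j : Fin n) : pd (pd (UL μ s ρ h) i) j = hL μ s h i j ρ := by
  rw [pd_UL' (thUL n) hμ hs hh (le_of_lt hρ : s ≤ ρ) i]
  exact (H1_gL (thUL n) hμ hs hh i).pd_eq hρ j

/-- polarised form -/
theorem pol_deriv (hμ : CSupp μ R) {N : (Fin n → ℝ) → ℝ} (hN : SB N) (hs : 0 < s)
    {g h : (Fin n → ℝ) → ℝ} (hg : SB g) (hh : SB h) (j l : Fin n) {ρ : ℝ} (hρ : ρ ∈ Ioo s T) :
    HasDerivAt (fun ρ => EY μ ρ fun y => PH (T - ρ) N y *
        (pd (UL μ s ρ g) j y * pd (UL μ s ρ h) l y))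
      (EY μ ρ fun y => PH (T - ρ) N y *
        ((-∑ m, PV μ ρ m j y * pd (UL μ s ρ g) m y) * pd (UL μ s ρ h) l y
          + pd (UL μ s ρ g) j y * (-∑ m, PV μ ρ m l y * pd (UL μ s ρ h) m y)
          - ∑ m, pd (pd (UL μ s ρ g) j) m y * pd (pd (UL μ s ρ h) l) m y)) ρ := by
  have hρs : ρ ∈ Ioi s := hρ.1
  have key := down_mul_src (Um_gL (thUL n) hμ hs hg j) (Um_gL (thUL n) hμ hs hh l) hμ isOpen_Ioi
    (gL_sub hs) hN hρs hρ.2
  have hcongr : (fun ρ => EY μ ρ fun y => PH (T - ρ) N y *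
        (pd (UL μ s ρ g) j y * pd (UL μ s ρ h) l y)) =ᶠ[𝓝 ρ]
      fun σ => EY μ σ fun y => PH (T - σ) N y * (gL μ s g j σ y * gL μ s h l σ y) := by
    filter_upwards [isOpen_Ioi.mem_nhds hρs] with τ hτ
    rw [pd_UL' (thUL n) hμ hs hg (le_of_lt hτ : s ≤ τ), pd_UL' (thUL n) hμ hs hh (le_of_lt hτ : s ≤ τ)]
  refine (key.congr_of_eventuallyEq hcongr).congr_deriv ?_
  congr 1
  funext y
  simp only [pd_pd_UL hμ hs hg hρs, pd_pd_UL hμ hs hh hρs,
    pd_UL' (thUL n) hμ hs hg (le_of_lt hρs : s ≤ ρ), pd_UL' (thUL n) hμ hs hh (le_of_lt hρs : s ≤ ρ),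
    PV_eq' hμ (hs.trans hρs)]
  have e2 : ∀ k, pd (gL μ s g j ρ) k y = hL μ s g j k ρ y := fun k => by
    rw [(H1_gL (thUL n) hμ hs hg j).pd_eq hρs k]
  have e3 : ∀ k, pd (gL μ s h l ρ) k y = hL μ s h l k ρ y := fun k => by
    rw [(H1_gL (thUL n) hμ hs hh l).pd_eq hρs k]
  simp only [e2, e3]

/-- **TB1**: for `f_i = UL μ s ρ (φ i)` and `q = PH (T - ρ) N · p_ρ`,
`d/dρ E_q |Df|² = -(E_q |D²f|² + 2 Σ_i E_q ⟨∇f_i, D²V_ρ ∇f_i⟩)`. -/
theorem tb1_deriv {ι : Type*} [Fintype ι] (hμ : CSupp μ R) {N : (Fin n → ℝ) → ℝ} (hN : SB N)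
    (hs : 0 < s) {φ : ι → (Fin n → ℝ) → ℝ} (hφ : ∀ i, SB (φ i)) {ρ : ℝ} (hρ : ρ ∈ Ioo s T) :
    HasDerivAt (fun ρ => EY μ ρ fun y => PH (T - ρ) N y * ∑ i, ∑ j, pd (UL μ s ρ (φ i)) j y ^ 2)
      (-(D2E μ ρ (PH (T - ρ) N) (fun i => UL μ s ρ (φ i))
        + 2 * ∑ i, BI μ ρ (PH (T - ρ) N) (fun j => pd (UL μ s ρ (φ i)) j)
            (fun j => pd (UL μ s ρ (φ i)) j))) ρ := by
  have hρs : ρ ∈ Ioi s := hρ.1
  have hρ0 : 0 < ρ := hs.trans hρs
  have key := down_sq_src (μ := μ) (R := R) (I := Ioi s) (Finset.univ : Finset (ι × Fin n))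
    (U := fun p => gL μ s (φ p.1) p.2)
    (e := fun p σ y => -∑ i, Pv μ i p.2 σ y * gL μ s (φ p.1) i σ y)
    (U1 := fun p => hL μ s (φ p.1) p.2)
    (fun p _ => Um_gL (thUL n) hμ hs (hφ p.1) p.2) hμ isOpen_Ioi (gL_sub hs) hN (c := T) hρs hρ.2
  have hcongr : (fun ρ => EY μ ρ fun y => PH (T - ρ) N y *
        ∑ i, ∑ j, pd (UL μ s ρ (φ i)) j y ^ 2) =ᶠ[𝓝 ρ]
      fun σ => EY μ σ fun y => PH (T - σ) N y *
        ∑ p : ι × Fin n, gL μ s (φ p.1) p.2 σ y ^ 2 := by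
    filter_upwards [isOpen_Ioi.mem_nhds hρs] with τ hτ
    congr 1
    funext y
    rw [Fintype.sum_prod_type]
    congr 1
    apply Finset.sum_congr rfl; intro i _
    apply Finset.sum_congr rfl; intro j _
    rw [pd_UL' (thUL n) hμ hs (hφ i) (le_of_lt hτ : s ≤ τ)]
  refine (key.congr_of_eventuallyEq hcongr).congr_deriv ?_
  -- rewrite the derivative
  have hVsb : SB (PH (T - ρ) N) := PH_sb hN _
  have hUsb : ∀ i, SB (UL μ s ρ (φ i)) := fun i =>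
    ((thR' n μ R hμ).2.2 s ρ hs (le_of_lt hρs)).1 _ (hφ i)
  have hPVsb : ∀ i j, SB (PV μ ρ i j) := fun i j => ((thR' n μ R hμ).2.1 ρ i j hρ0).1
  have hB : ∀ i, BI μ ρ (PH (T - ρ) N) (fun j => pd (UL μ s ρ (φ i)) j)
            (fun j => pd (UL μ s ρ (φ i)) j)
      = EY μ ρ fun y => PH (T - ρ) N y * ∑ j, ∑ k, PV μ ρ j k y * pd (UL μ s ρ (φ i)) j y
          * pd (UL μ s ρ (φ i)) k y := fun i => rfl
  have hBsb : ∀ i, SB fun y => PH (T - ρ) N y * ∑ j, ∑ k, PV μ ρ j k y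
      * pd (UL μ s ρ (φ i)) j y * pd (UL μ s ρ (φ i)) k y := fun i =>
    hVsb.mul (SB.sum _ fun j _ => SB.sum _ fun k _ =>
      ((hPVsb j k).mul ((hUsb i).pd j)).mul ((hUsb i).pd k))
  have hDsb : SB fun y => PH (T - ρ) N y * ∑ i, ∑ j, ∑ k, pd (pd (UL μ s ρ (φ i)) j) k y ^ 2 := by
    simp only [sq]
    exact hVsb.mul (SB.sum _ fun i _ => SB.sum _ fun j _ => SB.sum _ fun k _ =>
      (((hUsb i).pd j).pd k).mul (((hUsb i).pd j).pd k))
  have e1 : -(D2E μ ρ (PH (T - ρ) N) (fun i => UL μ s ρ (φ i))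
        + 2 * ∑ i, BI μ ρ (PH (T - ρ) N) (fun j => pd (UL μ s ρ (φ i)) j)
            (fun j => pd (UL μ s ρ (φ i)) j))
      = EY μ ρ fun y => (-1) * ((PH (T - ρ) N y * ∑ i, ∑ j, ∑ k,
          pd (pd (UL μ s ρ (φ i)) j) k y ^ 2)
        + 2 * ∑ i, (PH (T - ρ) N y * ∑ j, ∑ k, PV μ ρ j k y
      * pd (UL μ s ρ (φ i)) j y * pd (UL μ s ρ (φ i)) k y)) := by
    rw [EY_const_mul, EY_add μ ρ hDsb ((SB.sum _ fun i _ => hBsb i).const_mul 2), EY_const_mul,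
      EY_sum μ ρ Finset.univ fun i _ => hBsb i]
    simp only [hB]
    unfold D2E
    ring
  rw [e1]
  congr 1
  funext y
  rw [Fintype.sum_prod_type]
  simp only [pd_UL' (thUL n) hμ hs (hφ _) (le_of_lt hρs : s ≤ ρ), PV_eq' hμ hρ0]
  have e2 : ∀ i j k, pd (gL μ s (φ i) j ρ) k y = hL μ s (φ i) j k ρ y := fun i j k => by
    rw [(H1_gL (thUL n) hμ hs (hφ i) j).pd_eq hρs k]
  simp only [e2]
  have hq : ∀ i, ∑ j, (-∑ m, Pv μ m j ρ y * gL μ s (φ i) m ρ y) * gL μ s (φ i) j ρ y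
      = -∑ j, ∑ k, Pv μ j k ρ y * gL μ s (φ i) j ρ y * gL μ s (φ i) k ρ y := by
    intro i
    simp only [neg_mul, Finset.sum_neg_distrib, Finset.sum_mul]
    rw [Finset.sum_comm]
  have hi : ∀ i, ∑ j, (2 * ((-∑ m, Pv μ m j ρ y * gL μ s (φ i) m ρ y) * gL μ s (φ i) j ρ y)
        - ∑ k, hL μ s (φ i) j k ρ y ^ 2)
      = -(2 * ∑ j, ∑ k, Pv μ j k ρ y * gL μ s (φ i) j ρ y * gL μ s (φ i) k ρ y)
        - ∑ j, ∑ k, hL μ s (φ i) j k ρ y ^ 2 := by
    intro i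
    rw [Finset.sum_sub_distrib, ← Finset.mul_sum, hq i]
    ring
  rw [Finset.sum_congr rfl fun i _ => hi i, Finset.sum_sub_distrib, Finset.sum_neg_distrib,
    ← Finset.mul_sum, ← Finset.mul_sum]
  ring

/-- TB1 for vector fields, in the notation of `E1` -/
theorem tb1 (hμ : CSupp μ R) {N : (Fin n → ℝ) → ℝ} (hN : SB N) (hs : 0 < s)
    {φ : Fin n → (Fin n → ℝ) → ℝ} (hφ : ∀ i, SB (φ i)) :
    ContinuousOn (fun ρ => DE μ ρ (PH (T - ρ) N) (fun i => UL μ s ρ (φ i))) (Icc s T) ∧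
    ∀ ρ ∈ Ioo s T, HasDerivAt (fun ρ => DE μ ρ (PH (T - ρ) N) (fun i => UL μ s ρ (φ i)))
      (-(D2E μ ρ (PH (T - ρ) N) (fun i => UL μ s ρ (φ i))
        + 2 * ∑ i, BI μ ρ (PH (T - ρ) N) (fun j => pd (UL μ s ρ (φ i)) j)
            (fun j => pd (UL μ s ρ (φ i)) j))) ρ := by
  refine ⟨?_, fun ρ hρ => tb1_deriv hμ hN hs hφ hρ⟩
  have uU : ∀ i j, UE (Icc s T) (fun ρ => pd (UL μ s ρ (φ i)) j) := fun i j =>
    (UE_pdUL (thUL n) hμ hs (hφ i) j).mono fun _ h => h.1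
  have h1 := UE.EY_cont_Icc hμ ((UE_PH hN T (Icc s T)).mul
    (UE.sum Finset.univ fun i _ => UE.sum Finset.univ fun j _ => (uU i j).mul (uU i j)))
  unfold DE
  simp only [sq]
  exact h1

/-- the antisymmetric part of the gradient of a field -/
noncomputable def asy (f : Fin n → (Fin n → ℝ) → ℝ) (j k : Fin n) (y : Fin n → ℝ) : ℝ :=
  pd (f k) j y - pd (f j) k y

/-- derivative of `E_q |A|²`, `A` = antisymmetric part of `D f` (`719`'s row SYM) -/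
theorem asy_deriv (hμ : CSupp μ R) {N : (Fin n → ℝ) → ℝ} (hN : SB N) (hs : 0 < s)
    {φ : Fin n → (Fin n → ℝ) → ℝ} (hφ : ∀ i, SB (φ i)) :
    ContinuousOn (fun ρ => EY μ ρ fun y => PH (T - ρ) N y *
      ∑ j, ∑ k, asy (fun i => UL μ s ρ (φ i)) j k y ^ 2) (Icc s T) ∧
    ∀ ρ ∈ Ioo s T, HasDerivAt (fun ρ => EY μ ρ fun y => PH (T - ρ) N y *
        ∑ j, ∑ k, asy (fun i => UL μ s ρ (φ i)) j k y ^ 2)
      (-((EY μ ρ fun y => PH (T - ρ) N y *
          ∑ j, ∑ k, ∑ l, pd (asy (fun i => UL μ s ρ (φ i)) j k) l y ^ 2)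
        + 4 * EY μ ρ fun y => PH (T - ρ) N y * ∑ j, ∑ k,
            (∑ l, PV μ ρ l j y * pd (UL μ s ρ (φ k)) l y)
              * asy (fun i => UL μ s ρ (φ i)) j k y)) ρ := by
  constructor
  · have uU : ∀ i j, UE (Icc s T) (fun ρ => pd (UL μ s ρ (φ i)) j) := fun i j =>
      (UE_pdUL (thUL n) hμ hs (hφ i) j).mono fun _ h => h.1
    have h1 := UE.EY_cont_Icc hμ ((UE_PH hN T (Icc s T)).mul
      (UE.sum Finset.univ fun j _ => UE.sum Finset.univ fun k _ =>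
        ((uU k j).sub (uU j k)).mul ((uU k j).sub (uU j k))))
    unfold asy
    simp only [sq]
    exact h1
  · intro ρ hρ
    have hρs : ρ ∈ Ioi s := hρ.1
    have hρ0 : 0 < ρ := hs.trans hρs
    have hU : ∀ p : Fin n × Fin n, Um μ (Ioi s)
        (fun σ y => gL μ s (φ p.2) p.1 σ y + (-1) * gL μ s (φ p.1) p.2 σ y)
        (fun σ y => (-∑ i, Pv μ i p.1 σ y * gL μ s (φ p.2) i σ y)
          + (-1) * (-∑ i, Pv μ i p.2 σ y * gL μ s (φ p.1) i σ y))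
        (fun l σ y => hL μ s (φ p.2) p.1 l σ y + (-1) * hL μ s (φ p.1) p.2 l σ y) := by
      intro p
      have h1 := Um_gL (thUL n) hμ hs (hφ p.2) p.1
      have h2 := Um_gL (thUL n) hμ hs (hφ p.1) p.2
      have h3 := (Um.const (n := n) (μ := μ) (I := Ioi s) (-1)).mul h2
      have h4 := h1.add h3
      obtain ⟨d, da, a2, k1, k2, k3⟩ := h4.ex
      refine ⟨d, da, a2, k1.congr isOpen_Ioi (fun _ _ _ => rfl) (fun _ _ _ => rfl)
        (fun l σ _ y => by ring), fun l => (k2 l).congr isOpen_Ioi (fun σ _ y => by ring)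
        (fun _ _ _ => rfl) (fun _ _ _ _ => rfl), fun σ hσ y => ?_⟩
      have k4 := k3 σ hσ y
      simp only [zero_mul, zero_add, Finset.sum_const_zero, sub_zero, add_zero] at k4
      rw [k4]
    have key := down_sq_src (μ := μ) (R := R) (I := Ioi s) (Finset.univ : Finset (Fin n × Fin n))
      (fun p _ => hU p) hμ isOpen_Ioi (gL_sub hs) hN (c := T) hρs hρ.2
    have hcongr : (fun ρ => EY μ ρ fun y => PH (T - ρ) N y *
          ∑ j, ∑ k, asy (fun i => UL μ s ρ (φ i)) j k y ^ 2) =ᶠ[𝓝 ρ]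
        fun σ => EY μ σ fun y => PH (T - σ) N y *
          ∑ p : Fin n × Fin n, (gL μ s (φ p.2) p.1 σ y + (-1) * gL μ s (φ p.1) p.2 σ y) ^ 2 := by
      filter_upwards [isOpen_Ioi.mem_nhds hρs] with τ hτ
      congr 1
      funext y
      rw [Fintype.sum_prod_type]
      congr 1
      apply Finset.sum_congr rfl; intro i _
      apply Finset.sum_congr rfl; intro j _
      unfold asy
      simp only [pd_UL' (thUL n) hμ hs (hφ _) (le_of_lt hτ : s ≤ τ)]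
      ring
    refine (key.congr_of_eventuallyEq hcongr).congr_deriv ?_
    have hVsb : SB (PH (T - ρ) N) := PH_sb hN _
    have hUsb : ∀ i, SB (UL μ s ρ (φ i)) := fun i =>
      ((thR' n μ R hμ).2.2 s ρ hs (le_of_lt hρs)).1 _ (hφ i)
    have hAsb : ∀ j k, SB (asy (fun i => UL μ s ρ (φ i)) j k) := fun j k =>
      ((hUsb k).pd j).sub ((hUsb j).pd k)
    have hPVsb : ∀ i j, SB (PV μ ρ i j) := fun i j => ((thR' n μ R hμ).2.1 ρ i j hρ0).1
    have h1sb : SB fun y => PH (T - ρ) N y *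
          ∑ j, ∑ k, ∑ l, pd (asy (fun i => UL μ s ρ (φ i)) j k) l y ^ 2 := by
      simp only [sq]
      exact hVsb.mul (SB.sum _ fun j _ => SB.sum _ fun k _ => SB.sum _ fun l _ =>
        ((hAsb j k).pd l).mul ((hAsb j k).pd l))
    have h2sb : SB fun y => PH (T - ρ) N y * ∑ j, ∑ k,
            (∑ l, PV μ ρ l j y * pd (UL μ s ρ (φ k)) l y)
              * asy (fun i => UL μ s ρ (φ i)) j k y :=
      hVsb.mul (SB.sum _ fun j _ => SB.sum _ fun k _ =>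
        (SB.sum _ fun l _ => (hPVsb l j).mul ((hUsb k).pd l)).mul (hAsb j k))
    have e1 : -((EY μ ρ fun y => PH (T - ρ) N y *
          ∑ j, ∑ k, ∑ l, pd (asy (fun i => UL μ s ρ (φ i)) j k) l y ^ 2)
        + 4 * EY μ ρ fun y => PH (T - ρ) N y * ∑ j, ∑ k,
            (∑ l, PV μ ρ l j y * pd (UL μ s ρ (φ k)) l y)
              * asy (fun i => UL μ s ρ (φ i)) j k y)
        = EY μ ρ fun y => (-1) * ((PH (T - ρ) N y *
          ∑ j, ∑ k, ∑ l, pd (asy (fun i => UL μ s ρ (φ i)) j k) l y ^ 2)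
        + 4 * (PH (T - ρ) N y * ∑ j, ∑ k,
            (∑ l, PV μ ρ l j y * pd (UL μ s ρ (φ k)) l y)
              * asy (fun i => UL μ s ρ (φ i)) j k y)) := by
      rw [EY_const_mul, EY_add μ ρ h1sb (h2sb.const_mul 4), EY_const_mul]
      ring
    rw [e1]
    congr 1
    funext y
    rw [Fintype.sum_prod_type]
    have ep : ∀ j k l, pd (asy (fun i => UL μ s ρ (φ i)) j k) l y
        = hL μ s (φ k) j l ρ y + (-1) * hL μ s (φ j) k l ρ y := by
      intro j k l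
      have e3 : asy (fun i => UL μ s ρ (φ i)) j k
          = fun y => gL μ s (φ k) j ρ y + (-1) * gL μ s (φ j) k ρ y := by
        funext z
        unfold asy
        simp only [pd_UL' (thUL n) hμ hs (hφ _) (le_of_lt hρs : s ≤ ρ)]
        ring
      rw [e3]
      have h6 := ((H1_gL (thUL n) hμ hs (hφ k) j).add
        ((H1_gL (thUL n) hμ hs (hφ j) k).const_mul (-1))).pd_eq hρs l
      rw [h6]
    have ea : ∀ j k, asy (fun i => UL μ s ρ (φ i)) j k y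
        = gL μ s (φ k) j ρ y + (-1) * gL μ s (φ j) k ρ y := by
      intro j k
      unfold asy
      simp only [pd_UL' (thUL n) hμ hs (hφ _) (le_of_lt hρs : s ≤ ρ)]
      ring
    simp only [ep, ea, pd_UL' (thUL n) hμ hs (hφ _) (le_of_lt hρs : s ≤ ρ), PV_eq' hμ hρ0]
    set g : Fin n → Fin n → ℝ := fun k j => gL μ s (φ k) j ρ y with hg
    set W : Fin n → Fin n → ℝ := fun j k => ∑ l, Pv μ l j ρ y * gL μ s (φ k) l ρ y with hW
    have hX : ∑ j, ∑ k, W k j * (g k j + (-1) * g j k)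
        = -∑ j, ∑ k, W j k * (g k j + (-1) * g j k) := by
      rw [Finset.sum_comm, ← Finset.sum_neg_distrib]
      apply Finset.sum_congr rfl; intro j _
      rw [← Finset.sum_neg_distrib]
      apply Finset.sum_congr rfl; intro k _
      ring
    have hY : ∑ j, ∑ k, (2 * ((-W j k + (-1) * (-W k j)) * (g k j + (-1) * g j k))
          - ∑ l, (hL μ s (φ k) j l ρ y + (-1) * hL μ s (φ j) k l ρ y) ^ 2)
        = -(4 * ∑ j, ∑ k, W j k * (g k j + (-1) * g j k))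
          - ∑ j, ∑ k, ∑ l, (hL μ s (φ k) j l ρ y + (-1) * hL μ s (φ j) k l ρ y) ^ 2 := by
      have h7 : ∀ j k, (2 * ((-W j k + (-1) * (-W k j)) * (g k j + (-1) * g j k))
          - ∑ l, (hL μ s (φ k) j l ρ y + (-1) * hL μ s (φ j) k l ρ y) ^ 2)
          = (-2) * (W j k * (g k j + (-1) * g j k)) + 2 * (W k j * (g k j + (-1) * g j k))
            - ∑ l, (hL μ s (φ k) j l ρ y + (-1) * hL μ s (φ j) k l ρ y) ^ 2 := by
        intro j k; ring
      simp only [h7, Finset.sum_sub_distrib, Finset.sum_add_distrib, ← Finset.mul_sum]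
      rw [hX]
      ring
    have hZ : ∑ j, ∑ k, (2 * (((-∑ i, Pv μ i j ρ y * gL μ s (φ k) i ρ y)
            + (-1) * (-∑ i, Pv μ i k ρ y * gL μ s (φ j) i ρ y))
            * (gL μ s (φ k) j ρ y + (-1) * gL μ s (φ j) k ρ y))
          - ∑ l, (hL μ s (φ k) j l ρ y + (-1) * hL μ s (φ j) k l ρ y) ^ 2)
        = -(4 * ∑ j, ∑ k, W j k * (g k j + (-1) * g j k))
          - ∑ j, ∑ k, ∑ l, (hL μ s (φ k) j l ρ y + (-1) * hL μ s (φ j) k l ρ y) ^ 2 := hY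
    rw [hZ]
    ring

end

end Vale.Agent.P245.H676
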